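import Vale.Agent.P208.Defs
import Vale.Agent.P208.Main

/-- There is a doubling subset of the real Hilbert space `ℓ₂` that admits no bi-Lipschitz
embedding into any Euclidean space, for any scale and any finite distortion. -/
theorem Vale.Agent.Results.P208.A_full.result :
    ∃ X : Set (lp (fun _ : ℕ => ℝ) 2),
      Vale.Agent.P208.IsDoubling X ∧ ∀ k : ℕ, ¬ Vale.Agent.P208.BiLipEmbeds X k :=
  Vale.Agent.P208.lang_plaut_counterexample
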